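import Vale.Agent.Lib.P137.Main2

namespace Vale.Agent.Results.P137.A_sobolev

open MeasureTheory Metric Vale.Agent.Lib.P137

theorem result (d : ℕ) (hd : 1 ≤ d) : ∃ C : ℝ, ∀ (f : EuclideanSpace ℝ (Fin d) → ℝ)
    (G : EuclideanSpace ℝ (Fin d) → EuclideanSpace ℝ (Fin d)),
    Integrable f → Integrable G → IsWeakGradient f G →
    (∀ᵐ x : EuclideanSpace ℝ (Fin d), BddAbove (Set.range (fun p : {p : EuclideanSpace ℝ (Fin d) × ℝ //
        0 < p.2 ∧ x ∈ ball p.1 p.2} => ⨍ y in ball p.1.1 p.1.2, |f y|))) ∧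
    LocallyIntegrable (uncenteredMaximal f) ∧
    ∃ H : EuclideanSpace ℝ (Fin d) → EuclideanSpace ℝ (Fin d),
      Integrable H ∧ IsWeakGradient (uncenteredMaximal f) H ∧ ∫ x, ‖H x‖ ≤ C * ∫ x, ‖G x‖ :=
  euclidean_sobolev d hd

end Vale.Agent.Results.P137.A_sobolev
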