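import Vale.Agent.Lib.P137.BV4

namespace Vale.Agent.Results.P137.B_bv

open MeasureTheory Metric Vale.Agent.Lib.P137

theorem result (d : ℕ) (hd : 1 ≤ d) : ∃ C : ℝ, ∀ (f : EuclideanSpace ℝ (Fin d) → ℝ) (V : ℝ),
    Integrable f → VarLE f V →
    (∀ᵐ x : EuclideanSpace ℝ (Fin d), BddAbove (Set.range (fun p : {p : EuclideanSpace ℝ (Fin d) × ℝ //
        0 < p.2 ∧ x ∈ ball p.1 p.2} => ⨍ y in ball p.1.1 p.1.2, |f y|))) ∧
    LocallyIntegrable (uncenteredMaximal f) ∧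
    VarLE (uncenteredMaximal f) (C * V) :=
  euclidean_bv d hd

end Vale.Agent.Results.P137.B_bv
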