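import Vale.Agent.Lib.P137.Bridge

namespace Vale.Agent.Results.P137.D_nonneg

open MeasureTheory Vale.Agent.Lib.P137

theorem result (d : ℕ) (hd : 1 ≤ d) : ∃ C : ℝ, ∀ f : EuclideanSpace ℝ (Fin d) → ℝ,
    ContDiff ℝ 1 f → HasCompactSupport f → (∀ x, 0 ≤ f x) →
    (∃ L : NNReal, LipschitzWith L (uncenteredMaximal f)) ∧
    Integrable (fun x => ‖fderiv ℝ (uncenteredMaximal f) x‖) ∧
    ∫ x, ‖fderiv ℝ (uncenteredMaximal f) x‖ ≤ C * ∫ x, ‖fderiv ℝ f x‖ :=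
  euclidean_nonneg d hd

end Vale.Agent.Results.P137.D_nonneg
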